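import Vale.Agent.P032.H437.Fr2s

/-!
# P032: the window families: sides at the neighbours of the centre

`IC`, `OC` : the colour `i` is in the palette of the neighbour `pt z b` and occurs near it inside
(outside) the disc about `z`.
`tt_iff` : every colour of the neighbour is on one of the sides.
`Fr.side_real` : the letters of a circle `S(w)` through the neighbour, at the neighbour.
`Fr.side_lt` : the same in lattice coordinates at one time (families `sidelI`, `sidelO`);
`Fr2.side_l4` : at two times.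
`innc_ic`, `outc_oc` : the closed window of a colour inside (outside) (families `hullI`, `hullO`).
`ic_of_in`, `oc_of_out` : the letters of `z` (families `sidezI`, `sidezO`).
-/

open Set Filter Topology Metric

noncomputable section

namespace Vale.Agent.P032.H485

open Vale.Agent.P032.Six Vale.Agent.P032.Sweep Vale.Agent.P032.S5.H767 Vale.Agent.P032.S5.H122
  Vale.Agent.P032.H158 Vale.Agent.P032.H782 Vale.Agent.P032.H429 Vale.Agent.P032.H437

variable {U : Fin 6 → Set ℂ} {T : ℂ → Set (Fin 6)} {z : ℂ} {L R : Fin 6 → ℝ}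

/-- the colour `i` is in the palette of `pt z b` and occurs near it inside the disc about `z` -/
def IC (U : Fin 6 → Set ℂ) (T : ℂ → Set (Fin 6)) (z : ℂ) (b : ℝ) (i : Fin 6) : Prop :=
  i ∈ T (pt z b) ∧ InnN U z (pt z b) i

/-- the colour `i` is in the palette of `pt z b` and occurs near it outside the disc about `z` -/
def OC (U : Fin 6 → Set ℂ) (T : ℂ → Set (Fin 6)) (z : ℂ) (b : ℝ) (i : Fin 6) : Prop :=
  i ∈ T (pt z b) ∧ OutN U z (pt z b) i

/-- **families `sic`, `scI`, `scO`** -/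
theorem tt_iff (h : Irr U T) {b : ℝ} {i : Fin 6} :
    i ∈ T (pt z b) ↔ IC U T z b i ∨ OC U T z b i := by
  constructor
  · intro hi
    rcases out_or_inn h.mx (z := z) (h.sub _ hi) with h1 | h1
    · exact Or.inr ⟨hi, h1⟩
    · exact Or.inl ⟨hi, h1⟩
  · rintro (h1 | h1)
    · exact h1.1
    · exact h1.1

/-! ### Circles through the neighbour -/

theorem cis_add_three (x : ℝ) : cis ((x + 3) * (Real.pi / 3)) = -cis (x * (Real.pi / 3)) := by
  have h1 := pt_three 0 x
  unfold pt at h1
  linear_combination h1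

/-- the distance of a point of the circle about `pt (pt z a) b` from `z` -/
theorem dist_side (z : ℂ) (a b v : ℝ) : dist (pt (pt (pt z a) b) (v + 3)) z =
    dist (pt (pt 0 b) (a + 3) + (pt 0 v - pt 0 b)) (pt 0 b) := by
  rw [dist_eq_norm, dist_eq_norm, ← norm_neg]
  congr 1
  unfold pt
  rw [cis_add_three, cis_add_three]
  ring

theorem slot_self (z : ℂ) (a b : ℝ) : pt (pt (pt z a) b) (b + 3) = pt z a := by
  unfold pt
  rw [cis_add_three]
  ring

/-- the sign of the side -/
theorem side_sign {a b c : ℝ} {l : Filter ℝ} (hl : l ≤ 𝓝 b) (hc : ∀ᶠ v in l, 0 < c * (v - b))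
    (hs : c * Real.sin ((b - a) * (Real.pi / 3)) ≠ 0) (z : ℂ) :
    ∀ᶠ v in l, 0 < (c * Real.sin ((b - a) * (Real.pi / 3))) *
      (dist (pt (pt (pt z a) b) (v + 3)) z ^ 2 - 1) := by
  have e : Real.sin ((a + 3 - b) * (Real.pi / 3)) = Real.sin ((b - a) * (Real.pi / 3)) := by
    have e1 : (a + 3 - b) * (Real.pi / 3) = Real.pi - (b - a) * (Real.pi / 3) := by ring
    rw [e1, Real.sin_pi_sub]
  have h1 := side_ev (w := 0) (t := a + 3) hl hc (by rwa [e])
  rw [e] at h1
  filter_upwards [h1] with v hv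
  rwa [dist_side]

/-- the tangent circle -/
theorem side_tan {a b : ℝ} {l : Filter ℝ} (hl : l ≤ 𝓝 b) (hne : ∀ᶠ v in l, v ≠ b)
    (hcos : Real.cos ((b - a) * (Real.pi / 3)) = 1) (z : ℂ) :
    ∀ᶠ v in l, 1 < dist (pt (pt (pt z a) b) (v + 3)) z := by
  have h2 : ∀ᶠ v in 𝓝 b, |v - b| < 1 := by
    have hcon : Continuous fun v : ℝ => |v - b| := by fun_prop
    refine hcon.continuousAt.eventually (Iio_mem_nhds ?_)
    simp
  obtain ⟨n, hn⟩ := (Real.cos_eq_one_iff _).1 hcos
  have hp := Real.pi_pos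
  have hb : b = a + 6 * n := by
    have h3 : Real.pi * (n * 6) = Real.pi * (b - a) := by linarith
    have := mul_left_cancel₀ hp.ne' h3
    linarith
  filter_upwards [hl h2, hne] with v h3 h4
  obtain ⟨h5, h6⟩ := abs_lt.1 h3
  have h7 : pt (pt (pt z a) b) (v + 3) - z = 2 * cis (a * (Real.pi / 3)) -
      cis (v * (Real.pi / 3)) := by
    have e1 : b * (Real.pi / 3) = a * (Real.pi / 3) + 2 * Real.pi * n := by rw [hb]; ring
    unfold pt
    rw [cis_add_three, e1, cis_int429]
    ring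
  have h8 : Real.cos ((v - b) * (Real.pi / 3)) < 1 := by
    refine lt_of_le_of_ne (Real.cos_le_one _) fun h9 => ?_
    obtain ⟨m, hm⟩ := (Real.cos_eq_one_iff _).1 h9
    have h10 : Real.pi * (m * 6) = Real.pi * (v - b) := by linarith
    have h11 := mul_left_cancel₀ hp.ne' h10
    have h12 : (-1 : ℝ) < ((6 * m : ℤ) : ℝ) := by push_cast; linarith
    have h13 : ((6 * m : ℤ) : ℝ) < 1 := by push_cast; linarith
    have h14 : (-1 : ℤ) < 6 * m := by exact_mod_cast h12
    have h15 : 6 * m < 1 := by exact_mod_cast h13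
    have h16 : m = 0 := by omega
    rw [h16] at h11
    exact h4 (by push_cast at h11; linarith)
  have h9 : Real.cos ((v - b) * (Real.pi / 3)) =
      Real.cos (a * (Real.pi / 3) - v * (Real.pi / 3)) := by
    have e1 : (v - b) * (Real.pi / 3) =
        -(a * (Real.pi / 3) - v * (Real.pi / 3)) - n * (2 * Real.pi) := by rw [hb]; ring
    rw [e1, Real.cos_sub_int_mul_two_pi, Real.cos_neg]
  rw [h9, Real.cos_sub] at h8
  have h10 : 1 < dist (pt (pt (pt z a) b) (v + 3)) z ^ 2 := by
    rw [dist_eq_norm, h7, ← Complex.normSq_eq_norm_sq, Complex.normSq_apply]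
    simp only [Complex.sub_re, Complex.sub_im, Complex.mul_re, Complex.mul_im, cis_re, cis_im]
    have k1 := Real.sin_sq_add_cos_sq (a * (Real.pi / 3))
    have k2 := Real.sin_sq_add_cos_sq (v * (Real.pi / 3))
    norm_num
    nlinarith
  nlinarith [dist_nonneg (x := pt (pt (pt z a) b) (v + 3)) (y := z)]

section

variable {u : ℝ} {F : Bool → Ultrafilter ℝ} {σ : Bool}

/-- **letters of a circle through the neighbour, real slots** -/
theorem side_real (hf : Fr U T u F) {a b κ : ℝ} {i : Fin 6} (hκ : u + κ = b + 3)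
    (hi : i ∈ lt (F σ) T (pt (pt z a) b) κ) :
    (0 < sg σ * Real.sin ((b - a) * (Real.pi / 3)) → OC U T z a i) ∧
    (sg σ * Real.sin ((b - a) * (Real.pi / 3)) < 0 → IC U T z a i) ∧
    (Real.cos ((b - a) * (Real.pi / 3)) = 1 → OC U T z a i) := by
  have hl : Filter.map (fun v : ℝ => v - u + b) (F σ : Filter ℝ) ≤ 𝓝 b := by
    have hc : Continuous fun v : ℝ => v - u + b := by fun_prop
    have h1 := hc.tendsto u
    rw [sub_self, zero_add] at h1
    exact h1.mono_left (hf.le σ)
  have hc : ∀ᶠ v in Filter.map (fun v : ℝ => v - u + b) (F σ : Filter ℝ), 0 < sg σ * (v - b) := by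
    rw [eventually_map]
    filter_upwards [hf.ev_sg σ] with v hv
    rwa [show v - u + b - b = v - u by ring]
  have ept : ∀ v : ℝ, pt (pt (pt z a) b) (v - u + b + 3) = pt (pt (pt z a) b) (v + κ) := by
    intro v
    rw [show v - u + b + 3 = v + κ by linarith]
  have hmem : i ∈ T (pt z a) := by
    have h1 := lt_sub hf.irr (hf.le σ) hi
    rwa [hκ, slot_self] at h1
  have htd : Tendsto (fun v : ℝ => pt (pt (pt z a) b) (v + κ)) (F σ : Filter ℝ) (𝓝 (pt z a)) := by
    have h1 := tendsto_slot (hf.le σ) (pt (pt z a) b) κ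
    rwa [hκ, slot_self] at h1
  have hi' : ∀ᶠ v in (F σ : Filter ℝ), i ∈ T (pt (pt (pt z a) b) (v + κ)) := hi
  refine ⟨fun hs => ⟨hmem, ?_⟩, fun hs => ⟨hmem, ?_⟩, fun hs => ⟨hmem, ?_⟩⟩
  · have h1 := side_sign (a := a) hl hc hs.ne' z
    rw [eventually_map] at h1
    refine outN_of hf.irr (htd.frequently ((hi'.and h1).mono fun v hv => ⟨hv.1, ?_⟩).frequently)
    have h2 := hv.2
    rw [ept] at h2
    have h3 := (mul_pos_iff_of_pos_left hs).1 h2
    exact (sq_lt dist_nonneg).2.2 h3
  · have h1 := side_sign (a := a) hl hc hs.ne z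
    rw [eventually_map] at h1
    refine innN_of hf.irr (htd.frequently ((hi'.and h1).mono fun v hv => ⟨hv.1, ?_⟩).frequently)
    have h2 := hv.2
    rw [ept] at h2
    have h3 := (neg_iff_neg_of_mul_pos h2).1 hs
    exact (sq_lt dist_nonneg).1.2 h3
  · have h1 := side_tan (a := a) hl (hc.mono fun v hv h0 => by
      rw [h0, sub_self, mul_zero] at hv; exact lt_irrefl _ hv) hs z
    rw [eventually_map] at h1
    refine outN_of hf.irr (htd.frequently ((hi'.and h1).mono fun v hv => ⟨hv.1, ?_⟩).frequently)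
    have h2 := hv.2
    rwa [ept] at h2

/-! ### Lattice coordinates, one time -/

theorem sin_fin (d : Fin 6) : (d ≠ 0 → d ≠ 3 → ∀ σ : Bool,
    (sgn d σ = σ → 0 < sg σ * Real.sin ((d.val : ℝ) * (Real.pi / 3))) ∧
    (sgn d σ ≠ σ → sg σ * Real.sin ((d.val : ℝ) * (Real.pi / 3)) < 0)) := by
  have hp := Real.pi_pos
  have pos : ∀ y : ℝ, 0 < y → y < 3 → 0 < Real.sin (y * (Real.pi / 3)) := fun y hy hy3 =>
    Real.sin_pos_of_pos_of_lt_pi (by positivity) (by nlinarith)
  have neg : ∀ y : ℝ, 0 < y → y < 3 → Real.sin ((y + 3) * (Real.pi / 3)) < 0 := by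
    intro y hy hy3
    have e : (y + 3) * (Real.pi / 3) = y * (Real.pi / 3) + Real.pi := by ring
    rw [e, Real.sin_add_pi]
    linarith [pos y hy hy3]
  have p1 := pos 1 (by norm_num) (by norm_num)
  have p2 := pos 2 (by norm_num) (by norm_num)
  have p4 := neg 1 (by norm_num) (by norm_num)
  have p5 := neg 2 (by norm_num) (by norm_num)
  have e4 : (1 : ℝ) + 3 = 4 := by norm_num
  have e5 : (2 : ℝ) + 3 = 5 := by norm_num
  rw [e4] at p4
  rw [e5] at p5
  intro h0 h3 σ
  fin_cases d
  · exact absurd rfl h0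
  · cases σ
    · refine ⟨fun h => absurd h (by decide), fun _ => ?_⟩
      simp only [sg, cond_false]
      push_cast
      linarith
    · refine ⟨fun _ => ?_, fun h => absurd rfl h⟩
      simp only [sg, cond_true]
      push_cast
      linarith
  · cases σ
    · refine ⟨fun h => absurd h (by decide), fun _ => ?_⟩
      simp only [sg, cond_false]
      push_cast
      linarith
    · refine ⟨fun _ => ?_, fun h => absurd rfl h⟩
      simp only [sg, cond_true]
      push_cast
      linarith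
  · exact absurd rfl h3
  · cases σ
    · refine ⟨fun _ => ?_, fun h => absurd rfl h⟩
      simp only [sg, cond_false]
      push_cast
      linarith
    · refine ⟨fun h => absurd h (by decide), fun _ => ?_⟩
      simp only [sg, cond_true]
      push_cast
      linarith
  · cases σ
    · refine ⟨fun _ => ?_, fun h => absurd rfl h⟩
      simp only [sg, cond_false]
      push_cast
      linarith
    · refine ⟨fun h => absurd h (by decide), fun _ => ?_⟩
      simp only [sg, cond_true]
      push_cast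
      linarith

/-- letters at a neighbour, slots of one frame -/
theorem side_w (hf : Fr U T u F) {k m i : Fin 6} (hm : m ≠ k + 3)
    (hi : i ∈ lt (F σ) T (pt (pt z (u + (k.val : ℝ))) (u + (m.val : ℝ))) ((m + 3 : Fin 6).val : ℝ)) :
    (sgn (m - k) σ = σ → OC U T z (u + (k.val : ℝ)) i) ∧
    (sgn (m - k) σ ≠ σ → IC U T z (u + (k.val : ℝ)) i) := by
  rw [lt_fin_add] at hi
  obtain ⟨n, hn⟩ := fin_sub_cast k m
  have e3 : (((3 : Fin 6).val : ℕ) : ℝ) = 3 := by norm_num
  rw [e3] at hi
  obtain ⟨h1, h2, h3⟩ := side_real hf (a := u + (k.val : ℝ)) (b := u + (m.val : ℝ))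
    (by ring) hi
  have e : (u + (m.val : ℝ) - (u + (k.val : ℝ))) * (Real.pi / 3) =
      ((m - k : Fin 6).val : ℝ) * (Real.pi / 3) + n * (2 * Real.pi) := by
    have : u + (m.val : ℝ) - (u + (k.val : ℝ)) = ((m - k : Fin 6).val : ℝ) + 6 * n := by linarith
    rw [this]; ring
  rw [e, Real.sin_add_int_mul_two_pi] at h1 h2
  rw [e, Real.cos_add_int_mul_two_pi] at h3
  by_cases h0 : m - k = 0
  · have hO : OC U T z (u + (k.val : ℝ)) i := by
      refine h3 ?_
      rw [h0]
      simp
    refine ⟨fun _ => hO, fun h4 => absurd ?_ h4⟩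
    rw [h0]
    cases σ <;> rfl
  · have key : ∀ m k : Fin 6, m - k = 3 → m = k + 3 := by decide
    have h4 : m - k ≠ 3 := fun h => hm (key m k h)
    obtain ⟨h5, h6⟩ := sin_fin (m - k) h0 h4 σ
    exact ⟨fun h => h1 (h5 h), fun h => h2 (h6 h)⟩

/-- **families `sidelI`, `sidelO`** -/
theorem side_lt (hf : Fr U T u F) {k m i : Fin 6} (hm : m ≠ k + 3)
    (hi : LT T z u F σ (dx k + dx m) (dy k + dy m) (m + 3) i) :
    (sgn (m - k) σ = σ → OC U T z (u + (k.val : ℝ)) i) ∧
    (sgn (m - k) σ ≠ σ → IC U T z (u + (k.val : ℝ)) i) := by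
  refine side_w hf hm ?_
  have e1 : pt z (u + (k.val : ℝ)) = lp z u (dx k) (dy k) := by
    have := lp_step z u 0 0 k
    rwa [lp_zero, zero_add, zero_add] at this
  rw [e1, lp_step]
  exact hi

/-! ### The letters of the centre -/

/-- **family `sidezI`** -/
theorem ic_of_in (hf : Fr U T u F) {k i : Fin 6} (hi : IN T z u F σ 0 0 k i) :
    IC U T z (u + (k.val : ℝ)) i := by
  unfold IN at hi
  rw [lp_zero] at hi
  refine ⟨lt_sub hf.irr (hf.le σ) (hi.mem hf.irr), ?_⟩
  have h1 : ∃ᶠ p in 𝓝 (pt z (u + (k.val : ℝ))), ∃ᶠ w in 𝓝 p, w ∈ U i ∧ dist w z < 1 := by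
    refine (tendsto_slot (hf.le σ) z (k.val : ℝ)).frequently (Eventually.frequently ?_)
    have hi' : ∀ᶠ v in (F σ : Filter ℝ), OccIn T (pt z (v + (k.val : ℝ))) {x | dist x z < 1} i := hi
    exact hi'.mono fun v hv => hv.freq hf.irr
  exact frequently_frequently_nhds.1 h1

/-- **family `sidezO`** -/
theorem oc_of_out (hf : Fr U T u F) {k i : Fin 6} (hi : OUT T z u F σ 0 0 k i) :
    OC U T z (u + (k.val : ℝ)) i := by
  unfold OUT at hi
  rw [lp_zero] at hi
  refine ⟨lt_sub hf.irr (hf.le σ) (hi.mem hf.irr), ?_⟩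
  have h1 : ∃ᶠ p in 𝓝 (pt z (u + (k.val : ℝ))), ∃ᶠ w in 𝓝 p, w ∈ U i ∧ 1 < dist w z := by
    refine (tendsto_slot (hf.le σ) z (k.val : ℝ)).frequently (Eventually.frequently ?_)
    have hi' : ∀ᶠ v in (F σ : Filter ℝ), OccIn T (pt z (v + (k.val : ℝ))) {x | 1 < dist x z} i := hi
    exact hi'.mono fun v hv => hv.freq hf.irr
  exact frequently_frequently_nhds.1 h1

end

/-! ### The closed windows -/

/-- **family `hullO`**: a colour outside near the neighbour has its closed window behind -/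
theorem outc_oc (h : Mx U) {u : ℝ} {j i : Fin 6} (hle : L i ≤ R i) (hlt : R i < L i + 3)
    (hL : L i ∈ closure (Dr U z i)) (hR : R i ∈ closure (Dr U z i))
    (ho : OC U T z (u + (j.val : ℝ)) i) :
    outc (wn L R u i) (wr L R u i) (j.val : ZMod 6) := by
  obtain ⟨n, h1, h2⟩ := behind hlt (out_dir h ho.2 hL) (out_dir h ho.2 hR)
  have h3 := (outc_iff (i := i) hle u (j.val : ℤ)).2 ⟨n, by push_cast; linarith,
    by push_cast; linarith⟩
  simpa using h3

/-- **family `hullI`**: a colour inside near the neighbour has its closed window in front -/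
theorem innc_ic (h : Mx U) {u : ℝ} {j i : Fin 6} (hle : L i ≤ R i) (hlt : R i < L i + 3)
    (hL : L i ∈ closure (Dr U z i)) (hR : R i ∈ closure (Dr U z i))
    (ho : IC U T z (u + (j.val : ℝ)) i) :
    innc (wn L R u i) (wr L R u i) (j.val : ZMod 6) := by
  have e : ∀ x t : ℝ, 0 ≤ Real.cos ((x - t) * (Real.pi / 3)) →
      Real.cos ((x - (t + 3)) * (Real.pi / 3)) ≤ 0 := by
    intro x t hx
    have e1 : (x - (t + 3)) * (Real.pi / 3) = (x - t) * (Real.pi / 3) - Real.pi := by ring
    rw [e1, Real.cos_sub_pi]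
    linarith
  obtain ⟨n, h1, h2⟩ := behind hlt (e _ _ (inn_dir h ho.2 hL)) (e _ _ (inn_dir h ho.2 hR))
  have h3 := (innc_iff (i := i) hle u (j.val : ℤ)).2 ⟨n - 1, by push_cast; linarith,
    by push_cast; linarith⟩
  simpa using h3

/-! ### Two times -/

section

variable {u u' : ℝ} {F F' : Bool → Ultrafilter ℝ} {c c' σ : Bool}

theorem sg_ne {b σ : Bool} (h : b ≠ σ) : sg σ = -sg b := by
  revert h
  cases b <;> cases σ <;> simp [sg]

/-- **letters at a neighbour of an earlier class**: the neighbour at the time `u`, the frame of the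
circle at the time `u'`, `u < u' < u + 1` -/
theorem side_up (hf : Fr U T u' F') (h0 : u < u') (h1 : u' < u + 1) {k m i : Fin 6}
    (hi : i ∈ lt (F' σ) T (pt (pt z (u + (k.val : ℝ))) (u' + (m.val : ℝ)))
      ((m + 3 : Fin 6).val : ℝ)) :
    (sgc (m - k) = σ → OC U T z (u + (k.val : ℝ)) i) ∧
    (sgc (m - k) ≠ σ → IC U T z (u + (k.val : ℝ)) i) := by
  obtain ⟨n, hn⟩ := fin_sub_cast k m
  have e3 : (((3 : Fin 6).val : ℕ) : ℝ) = 3 := by norm_num
  rw [lt_fin_add, e3] at hi
  obtain ⟨h1', h2, -⟩ := side_real hf (a := u + (k.val : ℝ)) (b := u' + (m.val : ℝ))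
    (by ring) hi
  have e : (u' + (m.val : ℝ) - (u + (k.val : ℝ))) * (Real.pi / 3) =
      (u' - u + ((m - k : Fin 6).val : ℝ)) * (Real.pi / 3) + n * (2 * Real.pi) := by
    have : u' + (m.val : ℝ) - (u + (k.val : ℝ)) = u' - u + ((m - k : Fin 6).val : ℝ) + 6 * n := by
      linarith
    rw [this]; ring
  rw [e, Real.sin_add_int_mul_two_pi] at h1' h2
  have h5 := sin_c (x := u' - u) (by linarith) (by linarith) (m - k)
  refine ⟨fun h => h1' ?_, fun h => h2 ?_⟩
  · rw [← h]; exact h5
  · rw [sg_ne h]; linarith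

/-- **letters at a neighbour of a later class**: the neighbour at the time `u'`, the frame of the
circle at the time `u`, `u < u' < u + 1` -/
theorem side_down (hf : Fr U T u F) (h0 : u < u') (h1 : u' < u + 1) {k m i : Fin 6}
    (hi : i ∈ lt (F σ) T (pt (pt z (u' + (k.val : ℝ))) (u + (m.val : ℝ)))
      ((m + 3 : Fin 6).val : ℝ)) :
    (sgd (m - k) = σ → OC U T z (u' + (k.val : ℝ)) i) ∧
    (sgd (m - k) ≠ σ → IC U T z (u' + (k.val : ℝ)) i) := by
  obtain ⟨n, hn⟩ := fin_sub_cast k m
  have e3 : (((3 : Fin 6).val : ℕ) : ℝ) = 3 := by norm_num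
  rw [lt_fin_add, e3] at hi
  obtain ⟨h1', h2, -⟩ := side_real hf (a := u' + (k.val : ℝ)) (b := u + (m.val : ℝ))
    (by ring) hi
  have e : (u + (m.val : ℝ) - (u' + (k.val : ℝ))) * (Real.pi / 3) =
      (-(u' - u) + ((m - k : Fin 6).val : ℝ)) * (Real.pi / 3) + n * (2 * Real.pi) := by
    have : u + (m.val : ℝ) - (u' + (k.val : ℝ)) =
        -(u' - u) + ((m - k : Fin 6).val : ℝ) + 6 * n := by linarith
    rw [this]; ring
  rw [e, Real.sin_add_int_mul_two_pi] at h1' h2
  have h5 := sin_dd (x := u' - u) (by linarith) (by linarith) (m - k)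
  refine ⟨fun h => h1' ?_, fun h => h2 ?_⟩
  · rw [← h]; exact h5
  · rw [sg_ne h]; linarith

/-- **letters at a neighbour, two times**: the neighbour in the class `c`, the circle and its
letter in the class `c'` -/
theorem side_l4 (hf : Fr2 U T u u' F F') {k m i : Fin 6} (hm : c = c' → m ≠ k + 3)
    (hi : L4 T z u u' F F' c' σ (st4 c' (st4 c (0, 0, 0, 0) k) m) (m + 3) i) :
    (sg4 c c' (m - k) σ = σ → OC U T z (uu u u' c + (k.val : ℝ)) i) ∧
    (sg4 c c' (m - k) σ ≠ σ → IC U T z (uu u u' c + (k.val : ℝ)) i) := by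
  have e1 : l4 z u u' (st4 c' (st4 c (0, 0, 0, 0) k) m) =
      pt (pt z (uu u u' c + (k.val : ℝ))) (uu u u' c' + (m.val : ℝ)) := by
    rw [← l4_step, ← l4_step, l4_zero]
  unfold L4 at hi
  rw [e1] at hi
  cases c <;> cases c'
  · exact side_w hf.a (hm rfl) hi
  · exact side_up hf.b hf.lt0 hf.lt1 hi
  · exact side_down hf.a hf.lt0 hf.lt1 hi
  · exact side_w hf.b (hm rfl) hi

/-- the letters of the centre, two times, inside -/
theorem ic_of_i4 (hf : Fr2 U T u u' F F') {k i : Fin 6}
    (hi : I4 T z u u' F F' c σ (0, 0, 0, 0) k i) : IC U T z (uu u u' c + (k.val : ℝ)) i := by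
  unfold I4 at hi
  rw [l4_zero] at hi
  cases c
  · refine ic_of_in (σ := σ) hf.a ?_
    unfold IN; rw [lp_zero]; exact hi
  · refine ic_of_in (σ := σ) hf.b ?_
    unfold IN; rw [lp_zero]; exact hi

/-- the letters of the centre, two times, outside -/
theorem oc_of_o4 (hf : Fr2 U T u u' F F') {k i : Fin 6}
    (hi : O4 T z u u' F F' c σ (0, 0, 0, 0) k i) : OC U T z (uu u u' c + (k.val : ℝ)) i := by
  unfold O4 at hi
  rw [l4_zero] at hi
  cases c
  · refine oc_of_out (σ := σ) hf.a ?_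
    unfold OUT; rw [lp_zero]; exact hi
  · refine oc_of_out (σ := σ) hf.b ?_
    unfold OUT; rw [lp_zero]; exact hi

end

end Vale.Agent.P032.H485
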